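import Mathlib

/-!
# P025 G-PATCH : abstract patching (helper544) -- definitions

`F → F1 → F0`, `F → F2 → F0` fields (as types, with algebra maps and scalar towers).
`Patch F F1 F2 F0` : `F1 ∩ F2 = F` and `GL_n(F0) = GL_n(F1) GL_n(F2)`.

For an `F`-algebra `L`: `L_i = Fi ⊗[F] L`, `V(L) = PrimeSpectrum (F1 ⊗[F] L)`, etc.
-/

open TensorProduct

namespace P025H544

/-! ## The patching square -/

/-- Patching square of fields: intersection and factorization. -/
structure Patch (F F1 F2 F0 : Type*) [Field F] [Field F1] [Field F2] [Field F0]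
    [Algebra F F1] [Algebra F F2] [Algebra F F0] [Algebra F1 F0] [Algebra F2 F0]
    [IsScalarTower F F1 F0] [IsScalarTower F F2 F0] : Prop where
  inter : ∀ (x : F1) (y : F2), algebraMap F1 F0 x = algebraMap F2 F0 y →
    ∃ z : F, algebraMap F F1 z = x ∧ algebraMap F F2 z = y
  fact : ∀ (n : ℕ) (g : GL (Fin n) F0), ∃ (g1 : GL (Fin n) F1) (g2 : GL (Fin n) F2),
    g = Matrix.GeneralLinearGroup.map (algebraMap F1 F0) g1 *
      Matrix.GeneralLinearGroup.map (algebraMap F2 F0) g2

/-! ## Base change maps -/

section Maps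

/-- `A ⊗[F] L → B ⊗[F] L` for `A → B` (used for `F1 → F0`, `F2 → F0`). -/
noncomputable def bc (F A B L : Type*) [CommRing F] [CommRing A] [CommRing B] [CommRing L]
    [Algebra F A] [Algebra F B] [Algebra A B] [IsScalarTower F A B] [Algebra F L] :
    A ⊗[F] L →ₐ[F] B ⊗[F] L :=
  Algebra.TensorProduct.map (IsScalarTower.toAlgHom F A B) (AlgHom.id F L)

@[simp] theorem bc_tmul (F A B L : Type*) [CommRing F] [CommRing A] [CommRing B] [CommRing L]
    [Algebra F A] [Algebra F B] [Algebra A B] [IsScalarTower F A B] [Algebra F L]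
    (a : A) (l : L) : bc F A B L (a ⊗ₜ l) = (algebraMap A B a) ⊗ₜ l := by
  simp [bc]

/-- `A ⊗[F] L → A ⊗[F] L'` for an `F`-algebra map `f : L → L'`. -/
noncomputable def tL (F A : Type*) {L L' : Type*} [CommRing F] [CommRing A] [CommRing L]
    [CommRing L'] [Algebra F A] [Algebra F L] [Algebra F L'] (f : L →ₐ[F] L') :
    A ⊗[F] L →ₐ[A] A ⊗[F] L' :=
  Algebra.TensorProduct.map (AlgHom.id A A) f

@[simp] theorem tL_tmul (F A : Type*) {L L' : Type*} [CommRing F] [CommRing A] [CommRing L]
    [CommRing L'] [Algebra F A] [Algebra F L] [Algebra F L'] (f : L →ₐ[F] L')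
    (a : A) (l : L) : tL F A f (a ⊗ₜ l) = a ⊗ₜ (f l) := by
  simp [tL]

/-- Points: `V(L) = PrimeSpectrum (F1 ⊗[F] L)`, `D(L)`: `F2`, `E(L)`: `F0`. -/
abbrev Pt (F A L : Type*) [CommRing F] [CommRing A] [CommRing L] [Algebra F A] [Algebra F L] :=
  PrimeSpectrum (A ⊗[F] L)

/-- end point of an edge: `E(L) → V(L)` resp. `E(L) → D(L)`. -/
noncomputable def edge (F A B L : Type*) [CommRing F] [CommRing A] [CommRing B] [CommRing L]
    [Algebra F A] [Algebra F B] [Algebra A B] [IsScalarTower F A B] [Algebra F L] :
    Pt F B L → Pt F A L :=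
  PrimeSpectrum.comap (bc F A B L).toRingHom

/-- restriction of points along `f : L → L'`. -/
noncomputable def ptMap (F A : Type*) {L L' : Type*} [CommRing F] [CommRing A] [CommRing L]
    [CommRing L'] [Algebra F A] [Algebra F L] [Algebra F L'] (f : L →ₐ[F] L') :
    Pt F A L' → Pt F A L :=
  PrimeSpectrum.comap (tL F A f).toRingHom

/-- residue ring (field, for finite `L`) at a point. -/
abbrev Res (F A L : Type*) [CommRing F] [CommRing A] [CommRing L] [Algebra F A] [Algebra F L]
    (v : Pt F A L) : Type _ := (A ⊗[F] L) ⧸ v.asIdeal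

/-- residue field map at `v' ∈ V(L')` over `v = ptMap v'`. -/
noncomputable def resMap (F A : Type*) {L L' : Type*} [CommRing F] [CommRing A] [CommRing L]
    [CommRing L'] [Algebra F A] [Algebra F L] [Algebra F L'] (f : L →ₐ[F] L') (v' : Pt F A L')
    (v : Pt F A L) (h : ptMap F A f v' = v) : Res F A L v →+* Res F A L' v' :=
  Ideal.quotientMap v'.asIdeal (tL F A f).toRingHom (by rw [← h]; exact le_rfl)

/-- residue field map at an edge `e ∈ E(L)` with end point `v = edge e`. -/
noncomputable def resEdge (F A B L : Type*) [CommRing F] [CommRing A] [CommRing B] [CommRing L]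
    [Algebra F A] [Algebra F B] [Algebra A B] [IsScalarTower F A B] [Algebra F L]
    (e : Pt F B L) (v : Pt F A L) (h : edge F A B L e = v) : Res F A L v →+* Res F B L e :=
  Ideal.quotientMap e.asIdeal (bc F A B L).toRingHom (by rw [← h]; exact le_rfl)

end Maps

/-! ## Group action -/

section Action

/-- A group acting on a ring acts on its prime spectrum, `(g • x).asIdeal = g • x.asIdeal`. -/
noncomputable instance specAction (G R : Type*) [Group G] [CommRing R] [MulSemiringAction G R] :
    MulAction G (PrimeSpectrum R) where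
  smul g x := PrimeSpectrum.comap (MulSemiringAction.toRingHom G R g⁻¹) x
  one_smul x := by
    change PrimeSpectrum.comap (MulSemiringAction.toRingHom G R 1⁻¹) x = x
    ext r
    simp
  mul_smul g h x := by
    change PrimeSpectrum.comap (MulSemiringAction.toRingHom G R (g * h)⁻¹) x =
      PrimeSpectrum.comap (MulSemiringAction.toRingHom G R g⁻¹)
        (PrimeSpectrum.comap (MulSemiringAction.toRingHom G R h⁻¹) x)
    ext r
    simp [mul_smul]

theorem mem_smul_pt {G R : Type*} [Group G] [CommRing R] [MulSemiringAction G R] (g : G)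
    (x : PrimeSpectrum R) (r : R) : r ∈ (g • x).asIdeal ↔ g⁻¹ • r ∈ x.asIdeal := Iff.rfl

theorem smul_mem_smul_pt {G R : Type*} [Group G] [CommRing R] [MulSemiringAction G R] (g : G)
    (x : PrimeSpectrum R) (r : R) : g • r ∈ (g • x).asIdeal ↔ r ∈ x.asIdeal := by
  rw [mem_smul_pt, inv_smul_smul]

open scoped Pointwise in
theorem asIdeal_smul_pt {G R : Type*} [Group G] [CommRing R] [MulSemiringAction G R] (g : G)
    (x : PrimeSpectrum R) : (g • x).asIdeal = g • x.asIdeal := by
  ext r
  rw [mem_smul_pt, Ideal.mem_pointwise_smul_iff_inv_smul_mem]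

theorem continuous_smul_pt {G R : Type*} [Group G] [CommRing R] [MulSemiringAction G R] (g : G) :
    Continuous (fun x : PrimeSpectrum R => g • x) :=
  PrimeSpectrum.continuous_comap (MulSemiringAction.toRingHom G R g⁻¹)

/-- `G` acting `F`-linearly on `L` acts on `A ⊗[F] L` (`g • (a ⊗ l) = a ⊗ (g • l)`). -/
noncomputable instance tAct (F A L G : Type*) [CommRing F] [CommRing A] [CommRing L]
    [Algebra F A] [Algebra F L] [Group G] [MulSemiringAction G L] [SMulCommClass G F L] :
    MulSemiringAction G (A ⊗[F] L) where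
  smul g x := tL F A (MulSemiringAction.toAlgHom F L g) x
  one_smul x := by
    change tL F A (MulSemiringAction.toAlgHom F L (1 : G)) x = x
    have : MulSemiringAction.toAlgHom F L (1 : G) = AlgHom.id F L := by ext; simp
    rw [this]
    simp [tL]
  mul_smul g h x := by
    change tL F A (MulSemiringAction.toAlgHom F L (g * h)) x =
      tL F A (MulSemiringAction.toAlgHom F L g) (tL F A (MulSemiringAction.toAlgHom F L h) x)
    induction x with
    | zero => simp
    | add x y hx hy => rw [map_add, hx, hy, map_add, map_add]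
    | tmul a l => simp [mul_smul]
  smul_zero g := map_zero _
  smul_add g x y := map_add _ _ _
  smul_one g := map_one _
  smul_mul g x y := map_mul _ _ _

theorem smul_tmul_def (F A L G : Type*) [CommRing F] [CommRing A] [CommRing L]
    [Algebra F A] [Algebra F L] [Group G] [MulSemiringAction G L] [SMulCommClass G F L]
    (g : G) (a : A) (l : L) : g • (a ⊗ₜ[F] l) = a ⊗ₜ[F] (g • l) :=
  tL_tmul F A (MulSemiringAction.toAlgHom F L g) a l

end Action

end P025H544
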