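import Vale.Agent.P025.R2.H544.Glue

/-!
# P025 G-PATCH : points of `A ⊗[F] L`
-/

open TensorProduct

namespace P025H544

section Points

variable {F A L : Type*} [Field F] [Field A] [Field L] [Algebra F A] [Algebra F L]

theorem isMaximal_pt [Algebra.IsAlgebraic F L] (v : Pt F A L) : v.asIdeal.IsMaximal := by
  have : Algebra.IsIntegral A (A ⊗[F] L) := inferInstance
  apply Ideal.isMaximal_of_isIntegral_of_isMaximal_comap (R := A)
  have h : (v.asIdeal.comap (algebraMap A (A ⊗[F] L))) = ⊥ := by
    rcases Ideal.eq_bot_or_top (v.asIdeal.comap (algebraMap A (A ⊗[F] L))) with h | h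
    · exact h
    · exfalso
      rw [Ideal.comap_eq_top_iff] at h
      exact v.isPrime.ne_top h
  rw [h]
  exact Ideal.bot_isMaximal

theorem tL_integral {L' : Type*} [Field L'] [Algebra F L'] (f : L →ₐ[F] L')
    [Algebra.IsAlgebraic F L'] : (tL F A f).toRingHom.IsIntegral := by
  intro x
  have h : IsIntegral A x := Algebra.IsIntegral.isIntegral x
  obtain ⟨p, hp, hx⟩ := h
  refine ⟨p.map (algebraMap A (A ⊗[F] L)), hp.map _, ?_⟩
  rw [Polynomial.eval₂_map]
  have h2 : ((tL F A f).toRingHom).comp (algebraMap A (A ⊗[F] L)) = algebraMap A (A ⊗[F] L') :=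
    (tL F A f).comp_algebraMap
  rw [h2, hx]

/-- lying over: `V(L') → V(L)` is surjective. -/
theorem ptMap_surjective {L' : Type*} [Field L'] [Algebra F L'] (f : L →ₐ[F] L')
    [Algebra.IsAlgebraic F L'] :
    Function.Surjective (ptMap F A f) :=
  (tL_integral (A := A) f).comap_surjective (tL_injective f)

theorem isReduced_tensor_fin [FiniteDimensional F L] [Algebra.IsSeparable F L] :
    IsReduced (A ⊗[F] L) := by
  have : Algebra.FormallyUnramified F L := Algebra.FormallyUnramified.of_isSeparable F L
  have : Algebra.FormallyUnramified A (A ⊗[F] L) := inferInstance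
  have : Algebra.EssFiniteType A (A ⊗[F] L) := inferInstance
  exact Algebra.FormallyUnramified.isReduced_of_field A (A ⊗[F] L)

theorem isReduced_tensor [Algebra.IsSeparable F L] : IsReduced (A ⊗[F] L) := by
  constructor
  intro x hx
  have : Algebra.IsAlgebraic F L := Algebra.IsSeparable.isAlgebraic F L
  obtain ⟨K, hK, y, rfl⟩ := exists_fin_mem x
  have hK2 : Algebra.IsSeparable F K := inferInstance
  have hr : IsReduced (A ⊗[F] K) := isReduced_tensor_fin
  have hy : IsNilpotent y := (IsNilpotent.map_iff (tL_injective (A := A) K.val)).mp hx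
  rw [hr.eq_zero y hy, map_zero]

/-- a function on the points of a reduced finite `F`-algebra, with values in `A`, is a unique
element (Chinese remainder). -/
theorem exists_unique_of_fun [FiniteDimensional F L] [Algebra.IsSeparable F L]
    (c : Pt F A L → A) :
    ∃! γ : A ⊗[F] L, ∀ v : Pt F A L, γ - (c v) ⊗ₜ 1 ∈ v.asIdeal := by
  have hr : IsReduced (A ⊗[F] L) := isReduced_tensor_fin
  have ha : IsArtinianRing (A ⊗[F] L) := isArtinian_tensor
  let e := IsArtinianRing.equivPi (A ⊗[F] L)
  have hmax : ∀ v : Pt F A L, v.asIdeal.IsMaximal := fun v => isMaximal_pt v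
  refine ⟨e.symm (fun I => Ideal.Quotient.mk _ ((c ⟨I.asIdeal, I.isMaximal.isPrime⟩) ⊗ₜ 1)),
    ?_, ?_⟩
  · intro v
    rw [← Ideal.Quotient.eq]
    have h1 := IsArtinianRing.equivPi_apply (A ⊗[F] L)
      (e.symm (fun I => Ideal.Quotient.mk _ ((c ⟨I.asIdeal, I.isMaximal.isPrime⟩) ⊗ₜ 1)))
      ⟨v.asIdeal, hmax v⟩
    rw [← h1]
    change e (e.symm _) _ = _
    rw [AlgEquiv.apply_symm_apply]
  · intro γ hγ
    rw [← e.injective.eq_iff, AlgEquiv.apply_symm_apply]
    funext I
    have h2 := IsArtinianRing.equivPi_apply (A ⊗[F] L) γ I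
    change e γ I = _ at h2
    rw [h2, Ideal.Quotient.eq]
    exact hγ ⟨I.asIdeal, I.isMaximal.isPrime⟩

end Points

section Functorial

/-- functoriality in `L`. -/
theorem ptMap_comp {F A L L' L'' : Type*} [CommRing F] [CommRing A] [CommRing L] [CommRing L']
    [CommRing L''] [Algebra F A] [Algebra F L] [Algebra F L'] [Algebra F L'']
    (f : L →ₐ[F] L') (g : L' →ₐ[F] L'') (x : Pt F A L'') :
    ptMap F A f (ptMap F A g x) = ptMap F A (g.comp f) x := by
  rw [ptMap, ptMap, ptMap, ← PrimeSpectrum.comap_comp_apply]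
  congr 1
  ext z <;> simp

/-- edges are compatible with restriction. -/
theorem edge_ptMap {F A B L L' : Type*} [CommRing F] [CommRing A] [CommRing B] [CommRing L]
    [CommRing L'] [Algebra F A] [Algebra F B] [Algebra A B] [IsScalarTower F A B] [Algebra F L]
    [Algebra F L'] (f : L →ₐ[F] L') (e : Pt F B L') :
    edge F A B L (ptMap F B f e) = ptMap F A f (edge F A B L' e) := by
  rw [edge, ptMap, ptMap, edge, ← PrimeSpectrum.comap_comp_apply, ← PrimeSpectrum.comap_comp_apply]
  congr 1
  ext z
  · simp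
  · simp

/-- `g • x` in terms of `ptMap` -/
theorem smul_eq_ptMap {F A L G : Type*} [CommRing F] [CommRing A] [CommRing L]
    [Algebra F A] [Algebra F L]
    [Group G] [MulSemiringAction G L] [SMulCommClass G F L] (g : G) (x : Pt F A L) :
    g • x = ptMap F A (MulSemiringAction.toAlgHom F L g⁻¹) x := rfl

/-- edges are compatible with the group action. -/
theorem edge_smul {F A B L G : Type*} [CommRing F] [CommRing A] [CommRing B] [CommRing L]
    [Algebra F A] [Algebra F B] [Algebra A B] [IsScalarTower F A B] [Algebra F L]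
    [Group G] [MulSemiringAction G L] [SMulCommClass G F L] (g : G) (e : Pt F B L) :
    edge F A B L (g • e) = g • edge F A B L e := by
  rw [smul_eq_ptMap, smul_eq_ptMap, edge_ptMap]

end Functorial

end P025H544
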