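import Vale.Agent.P025.R2.H544.Gal

/-!
# P025 G-PATCH : (2.6) decomposition fields, fibre lemma
-/

open TensorProduct

namespace P025H544

section Dec

variable {F A L L' : Type*} [Field F] [Field A] [Field L] [Field L'] [Algebra F A] [Algebra F L]
  [Algebra F L'] [Algebra L L'] [IsScalarTower F L L']
  (G : Type*) [Group G] [MulSemiringAction G L'] [SMulCommClass G F L']

theorem res_res {Z : Type*} [Field Z] [Algebra F Z] [Algebra L Z]
    [Algebra Z L'] [IsScalarTower F L Z] [IsScalarTower F Z L'] [IsScalarTower L Z L']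
    (x : Pt F A L') : res F A L Z (res F A Z L' x) = res F A L L' x := by
  unfold res
  rw [ptMap_comp]
  congr 1
  ext z
  simp [IsScalarTower.algebraMap_apply L Z L']

variable {G} in
/-- compatibility of the two actions of a subgroup. -/
theorem subgroup_smul_pt (H : Subgroup G) (h : H) (x : Pt F A L') :
    (@specAction H (A ⊗[F] L') _ _ (tAct F A L' H)).smul h x = (h : G) • x := rfl

variable {G} in
theorem stabilizer_subgroup_top (H : Subgroup G) (x : Pt F A L')
    (hH : H ≤ MulAction.stabilizer G x) :
    @MulAction.stabilizer H (Pt F A L') _ (@specAction H (A ⊗[F] L') _ _ (tAct F A L' H)) x =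
      ⊤ := by
  rw [eq_top_iff]
  intro g _
  exact hH g.2

/-- decomposition field: if `L ≤ Z ≤ L'` and `Z` is the fixed field of the stabilizer of `x`, then
`Z_{x|Z} = L_v`. -/
theorem resMap_bijective_decomposition [Finite G] [IsGaloisGroup G L L']
    [Algebra.IsAlgebraic F L'] (x : Pt F A L') {Z : Type*} [Field Z] [Algebra F Z] [Algebra L Z]
    [Algebra Z L'] [IsScalarTower F L Z] [IsScalarTower F Z L'] [IsScalarTower L Z L']
    [IsGaloisGroup (MulAction.stabilizer G x) Z L'] :
    Function.Bijective (resMap F A (IsScalarTower.toAlgHom F L Z) (res F A Z L' x)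
      (res F A L L' x) (res_res x)) := by
  have hFL : Algebra.IsAlgebraic F L := Algebra.IsAlgebraic.tower_bot F L L'
  have hFZ : Algebra.IsAlgebraic F Z := Algebra.IsAlgebraic.tower_bot F Z L'
  have hv := isMaximal_pt (res F A L L' x)
  have hz := isMaximal_pt (res F A Z L' x)
  have hx := isMaximal_pt x
  let _ := Ideal.Quotient.field (res F A L L' x).asIdeal
  let _ := Ideal.Quotient.field (res F A Z L' x).asIdeal
  let _ := Ideal.Quotient.field x.asIdeal
  let f1 := resMap F A (IsScalarTower.toAlgHom F L Z) (res F A Z L' x)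
      (res F A L L' x) (res_res x)
  let f2 := resMap F A (IsScalarTower.toAlgHom F Z L') x (res F A Z L' x) rfl
  let f3 := resMap F A (IsScalarTower.toAlgHom F L L') x (res F A L L' x) rfl
  have hcomp : f2.comp f1 = f3 := by
    apply Ideal.Quotient.ringHom_ext
    ext z
    · change Ideal.Quotient.mk x.asIdeal
        (tL F A (IsScalarTower.toAlgHom F Z L') (tL F A (IsScalarTower.toAlgHom F L Z)
          (z ⊗ₜ[F] (1 : L)))) = Ideal.Quotient.mk x.asIdeal
            (tL F A (IsScalarTower.toAlgHom F L L') (z ⊗ₜ[F] (1 : L)))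
      rw [tL_tmul, tL_tmul, tL_tmul]
      simp
    · change Ideal.Quotient.mk x.asIdeal
        (tL F A (IsScalarTower.toAlgHom F Z L') (tL F A (IsScalarTower.toAlgHom F L Z)
          ((1 : A) ⊗ₜ[F] z))) = Ideal.Quotient.mk x.asIdeal
            (tL F A (IsScalarTower.toAlgHom F L L') ((1 : A) ⊗ₜ[F] z))
      rw [tL_tmul, tL_tmul, tL_tmul]
      simp [IsScalarTower.algebraMap_apply L Z L']
  have h3 := finrank_res_eq_card_stabilizer G x (res F A L L' x) rfl
  have h2 := finrank_res_eq_card_stabilizer (MulAction.stabilizer G x) x (res F A Z L' x) rfl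
  rw [stabilizer_subgroup_top _ x le_rfl, Nat.card_congr Subgroup.topEquiv.toEquiv] at h2
  apply bijective_of_finrank_one
  let _ := f1.toAlgebra
  let _ := f2.toAlgebra
  let _ := f3.toAlgebra
  have : IsScalarTower (Res F A L (res F A L L' x)) (Res F A Z (res F A Z L' x)) (Res F A L' x) :=
    IsScalarTower.of_algebraMap_eq' hcomp.symm
  have h4 := Module.finrank_mul_finrank (Res F A L (res F A L L' x)) (Res F A Z (res F A Z L' x))
    (Res F A L' x)
  have h3' : Module.finrank (Res F A L (res F A L L' x)) (Res F A L' x) =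
    Nat.card (MulAction.stabilizer G x) := h3
  have h2' : Module.finrank (Res F A Z (res F A Z L' x)) (Res F A L' x) =
    Nat.card (MulAction.stabilizer G x) := h2
  rw [h3', h2'] at h4
  have hpos : 0 < Nat.card (MulAction.stabilizer G x) := Nat.card_pos
  exact Nat.eq_of_mul_eq_mul_right hpos (by rw [one_mul]; exact h4)

end Dec

section Lift

variable {F A L L' : Type*} [Field F] [Field A] [Field L] [Field L'] [Algebra F A] [Algebra F L]
  [Algebra F L'] [Algebra L L'] [IsScalarTower F L L']

/-- `A ⊗ L → A ⊗ L'` is integral for `L'/L` algebraic. -/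
theorem tL_integral' [Algebra.IsAlgebraic L L'] :
    (tL F A (IsScalarTower.toAlgHom F L L')).toRingHom.IsIntegral := by
  let _ := tAlg F A L L'
  intro y
  change IsIntegral (A ⊗[F] L) y
  induction y with
  | zero => exact isIntegral_zero
  | add x y hx hy => exact hx.add hy
  | tmul a l =>
    have h1 : a ⊗ₜ[F] l = (a ⊗ₜ[F] (1 : L')) * ((1 : A) ⊗ₜ[F] l) := by simp
    rw [h1]
    apply IsIntegral.mul
    · have h2 : a ⊗ₜ[F] (1 : L') = algebraMap (A ⊗[F] L) (A ⊗[F] L') (a ⊗ₜ[F] (1 : L)) := by
        change _ = tL F A (IsScalarTower.toAlgHom F L L') (a ⊗ₜ[F] (1 : L))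
        simp
      rw [h2]
      exact isIntegral_algebraMap
    · obtain ⟨p, hp, hx⟩ := Algebra.IsIntegral.isIntegral (R := L) l
      let ψ : L →+* A ⊗[F] L := (Algebra.TensorProduct.includeRight : L →ₐ[F] A ⊗[F] L).toRingHom
      let ψ' : L' →+* A ⊗[F] L' :=
        (Algebra.TensorProduct.includeRight : L' →ₐ[F] A ⊗[F] L').toRingHom
      refine ⟨p.map ψ, hp.map _, ?_⟩
      rw [Polynomial.eval₂_map]
      have h3 : (algebraMap (A ⊗[F] L) (A ⊗[F] L')).comp ψ = ψ'.comp (algebraMap L L') := by
        ext z
        rfl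
      rw [h3]
      change Polynomial.eval₂ (ψ'.comp (algebraMap L L')) (ψ' l) p = 0
      rw [← Polynomial.hom_eval₂, hx, map_zero]

/-- lying over, `L'/L` algebraic. -/
theorem res_surjective [Algebra.IsAlgebraic L L'] : Function.Surjective (res F A L L') :=
  (tL_integral' (F := F) (A := A)).comap_surjective (tL_injective _)

/-- fibre lemma (any Galois group `G`, finite): an edge `e ∈ E(L)` and a vertex `v' ∈ V(L')` over
the end point of `e` lift to an edge `e' ∈ E(L')` with end point `v'`. -/
theorem exists_edge_lift_of_group (G : Type*) [Group G] [MulSemiringAction G L']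
    [SMulCommClass G F L'] [Finite G] [hG : IsGaloisGroup G L L']
    {B : Type*} [Field B] [Algebra F B] [Algebra A B] [IsScalarTower F A B]
    (e : Pt F B L) (x : Pt F A L') (h : edge F A B L e = res F A L L' x) :
    ∃ e' : Pt F B L', res F B L L' e' = e ∧ edge F A B L' e' = x := by
  have hcom : SMulCommClass G L L' := hG.commutes
  have hgal : IsGalois L L' := IsGaloisGroup.isGalois G L L'
  have halg : Algebra.IsAlgebraic L L' := Algebra.IsSeparable.isAlgebraic L L'
  obtain ⟨e1, he1⟩ := res_surjective (F := F) (A := B) (L := L) (L' := L') e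
  have h1 : res F A L L' (edge F A B L' e1) = res F A L L' x := by
    rw [← h, ← he1]
    exact (edge_ptMap (F := F) (A := A) (B := B) (IsScalarTower.toAlgHom F L L') e1).symm
  obtain ⟨g, hg⟩ := exists_smul_eq G (edge F A B L' e1) x h1
  refine ⟨g • e1, ?_, ?_⟩
  · rw [res_smul, he1]
  · rw [edge_smul, hg]

/-- `Gal(L'/L)` commutes with `F`. -/
theorem smulComm_gal : SMulCommClass (L' ≃ₐ[L] L') F L' where
  smul_comm g f z := by
    rw [Algebra.smul_def, Algebra.smul_def, smul_mul', IsScalarTower.algebraMap_apply F L L',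
      smul_algebraMap]

/-- fibre lemma: an edge `e ∈ E(L)` and a vertex `v' ∈ V(L')` over the end point of `e` lift to an
edge `e' ∈ E(L')` with end point `v'`. -/
theorem exists_edge_lift {B : Type*} [Field B] [Algebra F B] [Algebra A B] [IsScalarTower F A B]
    [FiniteDimensional L L'] [IsGalois L L'] (e : Pt F B L) (x : Pt F A L')
    (h : edge F A B L e = res F A L L' x) :
    ∃ e' : Pt F B L', res F B L L' e' = e ∧ edge F A B L' e' = x := by
  have := smulComm_gal (F := F) (L := L) (L' := L')
  exact exists_edge_lift_of_group (L' ≃ₐ[L] L') e x h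

end Lift

end P025H544
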