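import Vale.Agent.P025.R2.H544.Defs

/-!
# P025 G-PATCH : (2.1), (2.2)
-/

open TensorProduct

namespace P025H544

section Coord

variable {F A B : Type*} [Field F] [Field A] [Field B] [Algebra F A] [Algebra F B] [Algebra A B]
  [IsScalarTower F A B] {L : Type*} [Field L] [Algebra F L] {ι : Type*} (b : Module.Basis ι F L)

theorem repr_bc (x : A ⊗[F] L) (i : ι) :
    (Algebra.TensorProduct.basis B b).repr (bc F A B L x) i =
      algebraMap A B ((Algebra.TensorProduct.basis A b).repr x i) := by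
  induction x with
  | zero => simp
  | add x y hx hy => rw [map_add, map_add, map_add, Finsupp.add_apply, hx, hy, Finsupp.add_apply,
      map_add]
  | tmul a l =>
    rw [bc_tmul, Algebra.TensorProduct.basis_repr_tmul, Algebra.TensorProduct.basis_repr_tmul]
    simp only [Finsupp.smul_apply, Finsupp.mapRange_apply, smul_eq_mul, map_mul]
    rw [← IsScalarTower.algebraMap_apply]

/-- injectivity of the base change maps. -/
theorem bc_injective {F : Type*} [Field F] (A B : Type*) [Field A] [Field B] [Algebra F A]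
    [Algebra F B] [Algebra A B] [IsScalarTower F A B] (L : Type*) [Field L] [Algebra F L] :
    Function.Injective (bc F A B L) := by
  let b := Module.Basis.ofVectorSpace F L
  intro x y h
  apply (Algebra.TensorProduct.basis A b).repr.injective
  ext i
  apply (algebraMap A B).injective
  rw [← repr_bc b, ← repr_bc b, h]

theorem repr_one_tmul (l : L) (i : ι) :
    (Algebra.TensorProduct.basis A b).repr ((1 : A) ⊗ₜ[F] l) i = algebraMap F A (b.repr l i) := by
  rw [Algebra.TensorProduct.basis_repr_tmul]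
  simp

theorem one_tmul_injective (F A L : Type*) [Field F] [Field A] [Algebra F A] [Field L]
    [Algebra F L] : Function.Injective (fun l : L => (1 : A) ⊗ₜ[F] l) := by
  intro x y h
  let b := Module.Basis.ofVectorSpace F L
  apply b.repr.injective
  ext i
  apply (algebraMap F A).injective
  rw [← repr_one_tmul (A := A) b, ← repr_one_tmul (A := A) b]
  exact congrArg (fun z => (Algebra.TensorProduct.basis A b).repr z i) h

end Coord

section Square

variable {F F1 F2 F0 : Type*} [Field F] [Field F1] [Field F2] [Field F0]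
  [Algebra F F1] [Algebra F F2] [Algebra F F0] [Algebra F1 F0] [Algebra F2 F0]
  [IsScalarTower F F1 F0] [IsScalarTower F F2 F0] {L : Type*} [Field L] [Algebra F L]

/-- (2.1) `L1 ∩ L2 = L` in `L0` (`L` any field, also infinite over `F`). -/
theorem Patch.inter_tensor (hP : Patch F F1 F2 F0) (x : F1 ⊗[F] L) (y : F2 ⊗[F] L)
    (h : bc F F1 F0 L x = bc F F2 F0 L y) :
    ∃ z : L, x = 1 ⊗ₜ z ∧ y = 1 ⊗ₜ z := by
  let b := Module.Basis.ofVectorSpace F L
  have key : ∀ i, ∃ z : F, algebraMap F F1 z = (Algebra.TensorProduct.basis F1 b).repr x i ∧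
      algebraMap F F2 z = (Algebra.TensorProduct.basis F2 b).repr y i := by
    intro i
    apply hP.inter
    rw [← repr_bc b, ← repr_bc b, h]
  choose z hz1 hz2 using key
  let zf : Module.Basis.ofVectorSpaceIndex F L →₀ F :=
    Finsupp.onFinset ((Algebra.TensorProduct.basis F1 b).repr x).support z (by
      intro i hi
      rw [Finsupp.mem_support_iff, ← hz1 i]
      simpa using hi)
  refine ⟨b.repr.symm zf, ?_, ?_⟩
  · apply (Algebra.TensorProduct.basis F1 b).repr.injective
    ext i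
    rw [repr_one_tmul, LinearEquiv.apply_symm_apply]
    exact (hz1 i).symm
  · apply (Algebra.TensorProduct.basis F2 b).repr.injective
    ext i
    rw [repr_one_tmul, LinearEquiv.apply_symm_apply]
    exact (hz2 i).symm

/-- (2.2) for finite `L/F`. -/
theorem Patch.unit_fact_fin (hP : Patch F F1 F2 F0) [FiniteDimensional F L] (u : (F0 ⊗[F] L)ˣ) :
    ∃ (a : (F1 ⊗[F] L)ˣ) (b : (F2 ⊗[F] L)ˣ),
      (u : F0 ⊗[F] L) = bc F F1 F0 L a * bc F F2 F0 L b := by
  classical
  let b := Module.finBasis F L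
  set n := Module.finrank F L with hn
  let b1 := Algebra.TensorProduct.basis F1 b
  let b2 := Algebra.TensorProduct.basis F2 b
  let b0 := Algebra.TensorProduct.basis F0 b
  -- multiplication matrix
  let M : (F0 ⊗[F] L)ˣ →* GL (Fin n) F0 := Units.map (Algebra.leftMulMatrix b0 : _ →* _)
  obtain ⟨g1, g2, hg⟩ := hP.fact n (M u)
  -- coordinates
  have hcoord1 : ∀ (x : F1 ⊗[F] L), b0.equivFun (bc F F1 F0 L x) =
      fun i => algebraMap F1 F0 (b1.equivFun x i) := by
    intro x; ext i
    simp only [Module.Basis.equivFun_apply]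
    exact repr_bc b x i
  have hcoord2 : ∀ (x : F2 ⊗[F] L), b0.equivFun (bc F F2 F0 L x) =
      fun i => algebraMap F2 F0 (b2.equivFun x i) := by
    intro x; ext i
    simp only [Module.Basis.equivFun_apply]
    exact repr_bc b x i
  have hmul : ∀ y : F0 ⊗[F] L, b0.equivFun ((u : F0 ⊗[F] L) * y) =
      (M u : Matrix (Fin n) (Fin n) F0).mulVec (b0.equivFun y) := by
    intro y
    have := Algebra.leftMulMatrix_mulVec_repr b0 (u : F0 ⊗[F] L) y
    simp only [Module.Basis.equivFun_apply]
    exact this.symm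
  -- the two linear maps
  let X : (Fin n → F) →ₗ[F] F1 ⊗[F] L :=
    (b1.equivFun.symm.toLinearMap.restrictScalars F) ∘ₗ
      ((Matrix.mulVecLin (g1 : Matrix (Fin n) (Fin n) F1)).restrictScalars F) ∘ₗ
        (Algebra.linearMap F F1).compLeft (Fin n)
  let Y : (Fin n → F) →ₗ[F] F2 ⊗[F] L :=
    (b2.equivFun.symm.toLinearMap.restrictScalars F) ∘ₗ
      ((Matrix.mulVecLin ((g2⁻¹ : GL (Fin n) F2) : Matrix (Fin n) (Fin n) F2)).restrictScalars F) ∘ₗ
        (Algebra.linearMap F F2).compLeft (Fin n)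
  have hX : ∀ w, b1.equivFun (X w) = (g1 : Matrix (Fin n) (Fin n) F1).mulVec
      (fun i => algebraMap F F1 (w i)) := by
    intro w
    simp only [X, LinearMap.comp_apply, LinearMap.restrictScalars_apply, LinearEquiv.coe_coe,
      LinearEquiv.apply_symm_apply]
    rfl
  have hY : ∀ w, b2.equivFun (Y w) = ((g2⁻¹ : GL (Fin n) F2) : Matrix (Fin n) (Fin n) F2).mulVec
      (fun i => algebraMap F F2 (w i)) := by
    intro w
    simp only [Y, LinearMap.comp_apply, LinearMap.restrictScalars_apply, LinearEquiv.coe_coe,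
      LinearEquiv.apply_symm_apply]
    rfl
  have hmapmul1 : ∀ (g : Matrix (Fin n) (Fin n) F1) (v : Fin n → F1),
      (fun i => algebraMap F1 F0 (g.mulVec v i)) =
        (g.map (algebraMap F1 F0)).mulVec (fun i => algebraMap F1 F0 (v i)) := by
    intro g v; ext i
    exact RingHom.map_mulVec (algebraMap F1 F0) g v i
  have hmapmul2 : ∀ (g : Matrix (Fin n) (Fin n) F2) (v : Fin n → F2),
      (fun i => algebraMap F2 F0 (g.mulVec v i)) =
        (g.map (algebraMap F2 F0)).mulVec (fun i => algebraMap F2 F0 (v i)) := by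
    intro g v; ext i
    exact RingHom.map_mulVec (algebraMap F2 F0) g v i
  have hM : (M u : Matrix (Fin n) (Fin n) F0) =
      ((g1 : Matrix (Fin n) (Fin n) F1).map (algebraMap F1 F0)) *
        ((g2 : Matrix (Fin n) (Fin n) F2).map (algebraMap F2 F0)) := by
    rw [hg]; rfl
  have hg2inv : ((g2 : Matrix (Fin n) (Fin n) F2).map (algebraMap F2 F0)) *
      (((g2⁻¹ : GL (Fin n) F2) : Matrix (Fin n) (Fin n) F2).map (algebraMap F2 F0)) = 1 := by
    rw [← Matrix.map_mul, ← Units.val_mul, mul_inv_cancel]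
    simp
  have hg1inv : ((((g1⁻¹ : GL (Fin n) F1) : Matrix (Fin n) (Fin n) F1).map (algebraMap F1 F0))) *
      ((g1 : Matrix (Fin n) (Fin n) F1).map (algebraMap F1 F0)) = 1 := by
    rw [← Matrix.map_mul, ← Units.val_mul, inv_mul_cancel]
    simp
  have hw12 : ∀ w : Fin n → F, (fun i => algebraMap F1 F0 (algebraMap F F1 (w i))) =
      (fun i => algebraMap F2 F0 (algebraMap F F2 (w i))) := by
    intro w; ext i
    rw [← IsScalarTower.algebraMap_apply, ← IsScalarTower.algebraMap_apply]
  -- claim A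
  have hA : ∀ w, bc F F1 F0 L (X w) = (u : F0 ⊗[F] L) * bc F F2 F0 L (Y w) := by
    intro w
    apply b0.equivFun.injective
    rw [hmul, hcoord1, hcoord2, hX, hY, hmapmul1, hmapmul2, hM, Matrix.mulVec_mulVec,
      Matrix.mul_assoc, hg2inv, Matrix.mul_one, hw12]
  -- claim B
  have hB : ∀ (x : F1 ⊗[F] L) (y : F2 ⊗[F] L), bc F F1 F0 L x = (u : F0 ⊗[F] L) * bc F F2 F0 L y →
      ∃ w, X w = x ∧ Y w = y := by
    intro x y hxy
    have h1 := congrArg b0.equivFun hxy
    rw [hmul, hcoord1, hcoord2, hM, ← Matrix.mulVec_mulVec] at h1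
    have h2 := congrArg (((((g1⁻¹ : GL (Fin n) F1) : Matrix (Fin n) (Fin n) F1).map
      (algebraMap F1 F0)))).mulVec h1
    rw [Matrix.mulVec_mulVec, Matrix.mulVec_mulVec, hg1inv, Matrix.one_mul, ← hmapmul1,
      ← hmapmul2] at h2
    have h3 : ∀ i, ∃ z : F, algebraMap F F1 z =
        (((g1⁻¹ : GL (Fin n) F1) : Matrix (Fin n) (Fin n) F1).mulVec (b1.equivFun x)) i ∧
        algebraMap F F2 z = ((g2 : Matrix (Fin n) (Fin n) F2).mulVec (b2.equivFun y)) i := by
      intro i
      apply hP.inter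
      exact congrFun h2 i
    choose w hw1 hw2 using h3
    refine ⟨w, ?_, ?_⟩
    · apply b1.equivFun.injective
      rw [hX]
      have : (fun i => algebraMap F F1 (w i)) =
        (((g1⁻¹ : GL (Fin n) F1) : Matrix (Fin n) (Fin n) F1).mulVec (b1.equivFun x)) :=
        funext hw1
      rw [this, Matrix.mulVec_mulVec, ← Units.val_mul, mul_inv_cancel]
      simp
    · apply b2.equivFun.injective
      rw [hY]
      have : (fun i => algebraMap F F2 (w i)) =
        ((g2 : Matrix (Fin n) (Fin n) F2).mulVec (b2.equivFun y)) :=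
        funext hw2
      rw [this, Matrix.mulVec_mulVec, ← Units.val_mul, inv_mul_cancel]
      simp
  -- injectivity of X
  have hXinj : Function.Injective X := by
    rw [injective_iff_map_eq_zero]
    intro w hw
    have h1 := hX w
    rw [hw, map_zero] at h1
    have h2 := congrArg (((g1⁻¹ : GL (Fin n) F1) : Matrix (Fin n) (Fin n) F1)).mulVec h1
    rw [Matrix.mulVec_mulVec, ← Units.val_mul, inv_mul_cancel, Matrix.mulVec_zero] at h2
    ext i
    have h3 := congrFun h2 i
    simp only [Units.val_one, Matrix.one_mulVec, Pi.zero_apply] at h3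
    exact (map_eq_zero (algebraMap F F1)).mp h3.symm
  have hYinj : Function.Injective Y := by
    rw [injective_iff_map_eq_zero]
    intro w hw
    have h1 := hY w
    rw [hw, map_zero] at h1
    have h2 := congrArg ((g2 : Matrix (Fin n) (Fin n) F2)).mulVec h1
    rw [Matrix.mulVec_mulVec, ← Units.val_mul, mul_inv_cancel, Matrix.mulVec_zero] at h2
    ext i
    have h3 := congrFun h2 i
    simp only [Units.val_one, Matrix.one_mulVec, Pi.zero_apply] at h3
    exact (map_eq_zero (algebraMap F F2)).mp h3.symm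
  have hnpos : 0 < n := Module.finrank_pos
  have : NeZero n := ⟨hnpos.ne'⟩
  let w0 : Fin n → F := Pi.single 0 1
  have hw0 : w0 ≠ 0 := by simp [w0]
  let x0 := X w0
  let y0 := Y w0
  have hx0 : x0 ≠ 0 := fun h => hw0 (hXinj (by rw [map_zero]; exact h))
  have hxy0 : bc F F1 F0 L x0 = (u : F0 ⊗[F] L) * bc F F2 F0 L y0 := hA w0
  let Φ : (Fin n → F) →ₗ[F] (F1 ⊗[F] L) × (F2 ⊗[F] L) := X.prod Y
  let Ψ : L →ₗ[F] (F1 ⊗[F] L) × (F2 ⊗[F] L) :=
    ((LinearMap.mulLeft F x0) ∘ₗ (TensorProduct.mk F F1 L 1)).prod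
      ((LinearMap.mulLeft F y0) ∘ₗ (TensorProduct.mk F F2 L 1))
  have hΨ1 : ∀ l, (Ψ l).1 = x0 * ((1 : F1) ⊗ₜ[F] l) := fun l => rfl
  have hΨ2 : ∀ l, (Ψ l).2 = y0 * ((1 : F2) ⊗ₜ[F] l) := fun l => rfl
  have hΦinj : Function.Injective Φ := by
    intro w w' h
    exact hXinj (congrArg Prod.fst h)
  have hΨinj : Function.Injective Ψ := by
    rw [injective_iff_map_eq_zero]
    intro l hl
    by_contra hl0
    apply hx0
    have h1 : x0 * ((1 : F1) ⊗ₜ[F] l) = 0 := by rw [← hΨ1, hl]; rfl
    calc x0 = x0 * (((1 : F1) ⊗ₜ[F] l) * ((1 : F1) ⊗ₜ[F] l⁻¹)) := by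
          rw [Algebra.TensorProduct.tmul_mul_tmul, mul_one, mul_inv_cancel₀ hl0,
            ← Algebra.TensorProduct.one_def, mul_one]
      _ = 0 := by rw [← mul_assoc, h1, zero_mul]
  have hle : LinearMap.range Ψ ≤ LinearMap.range Φ := by
    rintro _ ⟨l, rfl⟩
    have h1 : bc F F1 F0 L (Ψ l).1 = (u : F0 ⊗[F] L) * bc F F2 F0 L (Ψ l).2 := by
      rw [hΨ1, hΨ2, map_mul, map_mul, hxy0, bc_tmul, bc_tmul, map_one, map_one, mul_assoc]
    obtain ⟨w, hw1, hw2⟩ := hB _ _ h1
    exact ⟨w, Prod.ext hw1 hw2⟩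
  have heq : LinearMap.range Ψ = LinearMap.range Φ := by
    apply Submodule.eq_of_le_of_finrank_eq hle
    rw [LinearMap.finrank_range_of_inj hΨinj, LinearMap.finrank_range_of_inj hΦinj,
      Module.finrank_fin_fun]
  have hdiv : ∀ w, (∃ l : L, X w = x0 * ((1 : F1) ⊗ₜ[F] l)) ∧
      (∃ l : L, Y w = y0 * ((1 : F2) ⊗ₜ[F] l)) := by
    intro w
    have : Φ w ∈ LinearMap.range Ψ := by rw [heq]; exact ⟨w, rfl⟩
    obtain ⟨l, hl⟩ := this
    exact ⟨⟨l, by rw [← hΨ1, hl]; rfl⟩, ⟨l, by rw [← hΨ2, hl]; rfl⟩⟩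
  -- x0 is a unit
  have hx0u : IsUnit x0 := by
    have hmem : ∀ v : Fin n → F1, b1.equivFun.symm ((g1 : Matrix (Fin n) (Fin n) F1).mulVec v) ∈
        Ideal.span {x0} := by
      intro v
      have hv : v = ∑ i, v i • (fun j => algebraMap F F1 ((Pi.single i 1 : Fin n → F) j)) := by
        ext j
        simp [Finset.sum_apply, Pi.single_apply]
      rw [hv, Matrix.mulVec_sum, map_sum]
      apply Ideal.sum_mem
      intro i _
      rw [Matrix.mulVec_smul, map_smul]
      have h2 : b1.equivFun.symm ((g1 : Matrix (Fin n) (Fin n) F1).mulVec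
        (fun j => algebraMap F F1 ((Pi.single i 1 : Fin n → F) j))) = X (Pi.single i 1) := by
        rw [← hX, LinearEquiv.symm_apply_apply]
      rw [h2]
      obtain ⟨l, hl⟩ := (hdiv (Pi.single i 1)).1
      rw [hl, Algebra.smul_def]
      exact Ideal.mul_mem_left _ _ (Ideal.mul_mem_right _ _ (Ideal.mem_span_singleton_self x0))
    have h1 : (1 : F1 ⊗[F] L) ∈ Ideal.span {x0} := by
      have := hmem ((((g1⁻¹ : GL (Fin n) F1) : Matrix (Fin n) (Fin n) F1)).mulVec (b1.equivFun 1))
      rwa [Matrix.mulVec_mulVec, ← Units.val_mul, mul_inv_cancel, Units.val_one,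
        Matrix.one_mulVec, LinearEquiv.symm_apply_apply] at this
    rw [Ideal.mem_span_singleton] at h1
    exact isUnit_of_dvd_one h1
  have hy0u : IsUnit y0 := by
    have hmem : ∀ v : Fin n → F2,
        b2.equivFun.symm (((g2⁻¹ : GL (Fin n) F2) : Matrix (Fin n) (Fin n) F2).mulVec v) ∈
        Ideal.span {y0} := by
      intro v
      have hv : v = ∑ i, v i • (fun j => algebraMap F F2 ((Pi.single i 1 : Fin n → F) j)) := by
        ext j
        simp [Finset.sum_apply, Pi.single_apply]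
      rw [hv, Matrix.mulVec_sum, map_sum]
      apply Ideal.sum_mem
      intro i _
      rw [Matrix.mulVec_smul, map_smul]
      have h2 : b2.equivFun.symm (((g2⁻¹ : GL (Fin n) F2) : Matrix (Fin n) (Fin n) F2).mulVec
        (fun j => algebraMap F F2 ((Pi.single i 1 : Fin n → F) j))) = Y (Pi.single i 1) := by
        rw [← hY, LinearEquiv.symm_apply_apply]
      rw [h2]
      obtain ⟨l, hl⟩ := (hdiv (Pi.single i 1)).2
      rw [hl, Algebra.smul_def]
      exact Ideal.mul_mem_left _ _ (Ideal.mul_mem_right _ _ (Ideal.mem_span_singleton_self y0))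
    have h1 : (1 : F2 ⊗[F] L) ∈ Ideal.span {y0} := by
      have := hmem (((g2 : Matrix (Fin n) (Fin n) F2)).mulVec (b2.equivFun 1))
      rwa [Matrix.mulVec_mulVec, ← Units.val_mul, inv_mul_cancel, Units.val_one,
        Matrix.one_mulVec, LinearEquiv.symm_apply_apply] at this
    rw [Ideal.mem_span_singleton] at h1
    exact isUnit_of_dvd_one h1
  obtain ⟨a, ha⟩ := hx0u
  obtain ⟨c, hc⟩ := hy0u
  refine ⟨a, c⁻¹, ?_⟩
  rw [ha, hxy0, mul_assoc, ← map_mul, ← hc, Units.mul_inv, map_one, mul_one]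

end Square

end P025H544
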