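import Vale.Agent.P025.R2.H544.Points

/-!
# P025 G-PATCH : (2.6) Galois theory of the points
-/

open TensorProduct
open scoped Pointwise

namespace P025H544

/-- the restriction of points from `L'` to `L`. -/
noncomputable abbrev res (F A L L' : Type*) [Field F] [Field A] [Field L] [Field L'] [Algebra F A]
    [Algebra F L] [Algebra F L'] [Algebra L L'] [IsScalarTower F L L'] :
    Pt F A L' → Pt F A L :=
  ptMap F A (IsScalarTower.toAlgHom F L L')

section Galois

variable {F A L L' : Type*} [Field F] [Field A] [Field L] [Field L'] [Algebra F A] [Algebra F L]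
  [Algebra F L'] [Algebra L L'] [IsScalarTower F L L']
  (G : Type*) [Group G] [MulSemiringAction G L'] [SMulCommClass G F L']

/-- `A ⊗ L'` as an algebra over `A ⊗ L` (used locally). -/
@[reducible] noncomputable def tAlg (F A L L' : Type*) [Field F] [Field A] [Field L] [Field L']
    [Algebra F A] [Algebra F L] [Algebra F L'] [Algebra L L'] [IsScalarTower F L L'] :
    Algebra (A ⊗[F] L) (A ⊗[F] L') :=
  (tL F A (IsScalarTower.toAlgHom F L L')).toRingHom.toAlgebra

attribute [local instance] tAlg

variable {G} in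
theorem smul_tL [SMulCommClass G L L'] (g : G) (t : A ⊗[F] L) :
    g • (tL F A (IsScalarTower.toAlgHom F L L') t) = tL F A (IsScalarTower.toAlgHom F L L') t := by
  induction t with
  | zero => simp
  | add x y hx hy => rw [map_add, smul_add, hx, hy]
  | tmul a l =>
    rw [tL_tmul, smul_tmul_def]
    congr 1
    exact smul_algebraMap g l

theorem tAlg_smulComm [SMulCommClass G L L'] : SMulCommClass G (A ⊗[F] L) (A ⊗[F] L') where
  smul_comm g t x := by
    rw [Algebra.smul_def, Algebra.smul_def, smul_mul']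
    congr 1
    exact smul_tL g t

theorem tAlg_isInvariant [SMulCommClass G L L'] [Algebra.IsInvariant L L' G] :
    Algebra.IsInvariant (A ⊗[F] L) (A ⊗[F] L') G where
  isInvariant x hx := by
    classical
    let b := Module.Basis.ofVectorSpace F A
    let e := TensorProduct.equivFinsuppOfBasisLeft (N := L') b
    let e0 := TensorProduct.equivFinsuppOfBasisLeft (N := L) b
    have h1 : ∀ (g : G) (z : A ⊗[F] L') i, e (g • z) i = g • (e z i) := by
      intro g z i
      induction z with
      | zero => simp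
      | add x y hx hy => rw [smul_add, map_add, map_add, Finsupp.add_apply, hx, hy,
          Finsupp.add_apply, smul_add]
      | tmul a l =>
        rw [smul_tmul_def]
        simp only [e, TensorProduct.equivFinsuppOfBasisLeft_apply_tmul, Finsupp.mapRange_apply]
        exact (smul_comm g _ l).symm
    have h2 : ∀ (z : A ⊗[F] L) i, e (tL F A (IsScalarTower.toAlgHom F L L') z) i =
        algebraMap L L' (e0 z i) := by
      intro z i
      induction z with
      | zero => simp
      | add x y hx hy => rw [map_add, map_add, map_add, Finsupp.add_apply, hx, hy,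
          Finsupp.add_apply, map_add]
      | tmul a l =>
        simp only [tL_tmul, e, e0, TensorProduct.equivFinsuppOfBasisLeft_apply_tmul,
          Finsupp.mapRange_apply]
        rw [IsScalarTower.coe_toAlgHom', Algebra.smul_def, Algebra.smul_def, map_mul,
          ← IsScalarTower.algebraMap_apply]
    have h3 : ∀ i, ∃ l : L, algebraMap L L' l = e x i := by
      intro i
      apply Algebra.IsInvariant.isInvariant (A := L) (G := G)
      intro g
      rw [← h1, hx g]
    choose c hc using h3
    let cf : Module.Basis.ofVectorSpaceIndex F A →₀ L :=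
      Finsupp.onFinset (e x).support c (by
        intro i hi
        rw [Finsupp.mem_support_iff, ← hc i]
        simpa using hi)
    refine ⟨e0.symm cf, ?_⟩
    apply e.injective
    ext i
    change e (tL F A (IsScalarTower.toAlgHom F L L') (e0.symm cf)) i = e x i
    rw [h2, LinearEquiv.apply_symm_apply]
    exact hc i

theorem res_smul [SMulCommClass G L L'] (g : G) (x : Pt F A L') :
    res F A L L' (g • x) = res F A L L' x := by
  rw [smul_eq_ptMap, res, ptMap_comp]
  congr 1
  ext l
  simp [smul_algebraMap]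

/-- transitivity on the fibres (`G` finite with `L'^G = L`; for `G = Gal(L'/L)` or any
`IsGaloisGroup G L L'`). -/
theorem exists_smul_eq [Finite G] [hG : IsGaloisGroup G L L'] (x y : Pt F A L')
    (h : res F A L L' x = res F A L L' y) : ∃ g : G, g • x = y := by
  have h1 : SMulCommClass G L L' := hG.commutes
  have h2 : Algebra.IsInvariant L L' G := hG.isInvariant
  have h3 : SMulCommClass G (A ⊗[F] L) (A ⊗[F] L') := tAlg_smulComm G
  have h4 : Algebra.IsInvariant (A ⊗[F] L) (A ⊗[F] L') G := tAlg_isInvariant G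
  have hx := x.isPrime
  have hy := y.isPrime
  obtain ⟨g, hg⟩ := Algebra.IsInvariant.exists_smul_of_under_eq (A ⊗[F] L) (A ⊗[F] L') G
    x.asIdeal y.asIdeal (congrArg PrimeSpectrum.asIdeal h)
  refine ⟨g, ?_⟩
  ext1
  rw [asIdeal_smul_pt, hg]

omit [Algebra F L] [IsScalarTower F L L'] [SMulCommClass G F L'] in
/-- the inertia group is trivial -/
theorem eq_one_of_smul_sub_mem [hG : IsGaloisGroup G L L'] (x : Pt F A L') (g : G)
    (h : ∀ z : L', (1 : A) ⊗ₜ[F] (g • z - z) ∈ x.asIdeal) : g = 1 := by
  have hf : FaithfulSMul G L' := hG.faithful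
  apply hf.eq_of_smul_eq_smul
  intro z
  rw [one_smul]
  by_contra hne
  have h1 : g • z - z ≠ 0 := sub_ne_zero.mpr hne
  exact x.isPrime.ne_top (Ideal.eq_top_of_isUnit_mem _ (h z) (isUnit_one_tmul h1))

theorem stabilizer_pt_eq (x : Pt F A L') :
    MulAction.stabilizer G x = MulAction.stabilizer G x.asIdeal := by
  ext g
  rw [MulAction.mem_stabilizer_iff, MulAction.mem_stabilizer_iff, ← asIdeal_smul_pt,
    PrimeSpectrum.ext_iff]

/-- general count for trivial inertia. -/
theorem finrank_of_inertia_bot {R S G : Type*} [CommRing R] [CommRing S] [Algebra R S] [Group G]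
    [Finite G] [MulSemiringAction G S] [SMulCommClass G R S] [Algebra.IsInvariant R S G]
    (P : Ideal R) (Q : Ideal S) [P.IsMaximal] [Q.IsMaximal] [Q.LiesOver P]
    (hI : Q.inertia (MulAction.stabilizer G Q) = ⊥)
    (hs : letI := Ideal.Quotient.field P; letI := Ideal.Quotient.field Q
      Algebra.IsSeparable (R ⧸ P) (S ⧸ Q)) :
    Module.finrank (R ⧸ P) (S ⧸ Q) = Nat.card (MulAction.stabilizer G Q) := by
  let _ := Ideal.Quotient.field P
  let _ := Ideal.Quotient.field Q
  have hn : Normal (R ⧸ P) (S ⧸ Q) := Ideal.Quotient.normal G P Q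
  have hg : IsGalois (R ⧸ P) (S ⧸ Q) := { hs, hn with }
  have hf : Module.Finite (R ⧸ P) (S ⧸ Q) := Ideal.Quotient.finite_of_isInvariant G P Q
  rw [← IsGalois.card_aut_eq_finrank (R ⧸ P) (S ⧸ Q)]
  have e1 := Ideal.Quotient.stabilizerQuotientInertiaEquiv G P Q
  rw [← Nat.card_congr e1.toEquiv,
    Subgroup.card_eq_card_quotient_mul_card_subgroup (Q.inertia (MulAction.stabilizer G Q)), hI]
  simp

/-- separability of residue extensions. -/
theorem residue_separable [Algebra.IsSeparable L L'] (P : Ideal (A ⊗[F] L)) (Q : Ideal (A ⊗[F] L'))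
    [P.IsMaximal] [Q.IsMaximal] [Q.LiesOver P] :
    letI := Ideal.Quotient.field P; letI := Ideal.Quotient.field Q
      Algebra.IsSeparable ((A ⊗[F] L) ⧸ P) ((A ⊗[F] L') ⧸ Q) := by
  let _ := Ideal.Quotient.field P
  let _ := Ideal.Quotient.field Q
  let iA : Algebra L ((A ⊗[F] L) ⧸ P) :=
    ((Ideal.Quotient.mk P).comp (Algebra.TensorProduct.includeRight :
      L →ₐ[F] A ⊗[F] L).toRingHom).toAlgebra
  constructor
  intro y
  obtain ⟨y, rfl⟩ := Ideal.Quotient.mk_surjective y
  induction y with
  | zero =>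
    rw [map_zero, ← map_zero (algebraMap ((A ⊗[F] L) ⧸ P) ((A ⊗[F] L') ⧸ Q))]
    exact isSeparable_algebraMap _
  | add x y hx hy => rw [map_add]; exact Field.isSeparable_add hx hy
  | tmul a l =>
    have h1 : a ⊗ₜ[F] l = (a ⊗ₜ[F] (1 : L')) * ((1 : A) ⊗ₜ[F] l) := by simp
    rw [h1, map_mul]
    apply Field.isSeparable_mul
    · have h2 : (Ideal.Quotient.mk Q) (a ⊗ₜ[F] (1 : L')) =
        algebraMap ((A ⊗[F] L) ⧸ P) ((A ⊗[F] L') ⧸ Q) (Ideal.Quotient.mk P (a ⊗ₜ[F] (1 : L))) := by
        rw [Ideal.Quotient.algebraMap_mk_of_liesOver]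
        congr 1
        change _ = tL F A (IsScalarTower.toAlgHom F L L') (a ⊗ₜ[F] (1 : L))
        simp
      rw [h2]
      exact isSeparable_algebraMap _
    · have hsep : IsSeparable L l := Algebra.IsSeparable.isSeparable L l
      have hp : ((minpoly L l).map (algebraMap L ((A ⊗[F] L) ⧸ P))).Separable :=
        Polynomial.Separable.map hsep
      refine Polynomial.Separable.of_dvd hp (minpoly.dvd _ _ ?_)
      rw [Polynomial.aeval_def, Polynomial.eval₂_map]
      let ψ : L' →+* (A ⊗[F] L') ⧸ Q := (Ideal.Quotient.mk Q).comp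
        (Algebra.TensorProduct.includeRight : L' →ₐ[F] A ⊗[F] L').toRingHom
      have h3 : (algebraMap ((A ⊗[F] L) ⧸ P) ((A ⊗[F] L') ⧸ Q)).comp
          (algebraMap L ((A ⊗[F] L) ⧸ P)) = ψ.comp (algebraMap L L') := by
        ext z
        change algebraMap ((A ⊗[F] L) ⧸ P) ((A ⊗[F] L') ⧸ Q) (Ideal.Quotient.mk P ((1 : A) ⊗ₜ[F] z))
          = Ideal.Quotient.mk Q ((1 : A) ⊗ₜ[F] (algebraMap L L' z))
        rw [Ideal.Quotient.algebraMap_mk_of_liesOver]
        congr 1
      rw [h3]
      change Polynomial.eval₂ (ψ.comp (algebraMap L L')) (ψ l) (minpoly L l) = 0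
      rw [← Polynomial.hom_eval₂, ← Polynomial.aeval_def, minpoly.aeval, map_zero]

omit [Algebra F L] [IsScalarTower F L L'] in
variable {G} (L) in
theorem inertia_bot [hG : IsGaloisGroup G L L'] (Q : Ideal (A ⊗[F] L')) [hQ : Q.IsPrime] :
    Q.inertia (MulAction.stabilizer G Q) = ⊥ := by
  rw [eq_bot_iff]
  intro g hg
  rw [Subgroup.mem_bot]
  ext1
  apply eq_one_of_smul_sub_mem (F := F) (A := A) (L := L) G (⟨Q, hQ⟩ : Pt F A L') (g : G)
  intro z
  have h1 := hg ((1 : A) ⊗ₜ[F] z)
  have h2 : (g • ((1 : A) ⊗ₜ[F] z)) = (1 : A) ⊗ₜ[F] ((g : G) • z) := smul_tmul_def F A L' G g.1 1 z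
  rw [h2] at h1
  rw [TensorProduct.tmul_sub]
  exact h1

/-- count: `[L'_{v'} : L_v] = |Stab_G(v')|`. -/
theorem finrank_res_eq_card_stabilizer [Finite G] [hG : IsGaloisGroup G L L']
    [Algebra.IsAlgebraic F L'] (x : Pt F A L') (v : Pt F A L) (h : res F A L L' x = v) :
    @Module.finrank (Res F A L v) (Res F A L' x) _ _
      (resMap F A (IsScalarTower.toAlgHom F L L') x v h).toModule
      = Nat.card (MulAction.stabilizer G x) := by
  subst h
  have h1 : SMulCommClass G L L' := hG.commutes
  have h2 : Algebra.IsInvariant L L' G := hG.isInvariant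
  have h3 : SMulCommClass G (A ⊗[F] L) (A ⊗[F] L') := tAlg_smulComm G
  have h4 : Algebra.IsInvariant (A ⊗[F] L) (A ⊗[F] L') G := tAlg_isInvariant G
  have hFL : Algebra.IsAlgebraic F L := Algebra.IsAlgebraic.tower_bot F L L'
  have hgal : IsGalois L L' := IsGaloisGroup.isGalois G L L'
  let P := (res F A L L' x).asIdeal
  let Q := x.asIdeal
  have hP : P.IsMaximal := isMaximal_pt _
  have hQ : Q.IsMaximal := isMaximal_pt _
  have hQp : Q.IsPrime := x.isPrime
  have hlo : Q.LiesOver P := ⟨rfl⟩
  have h5 := finrank_of_inertia_bot (G := G) P Q (inertia_bot L Q) (residue_separable P Q)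
  rw [stabilizer_pt_eq]
  have h6 : (inferInstance : Algebra ((A ⊗[F] L) ⧸ P) ((A ⊗[F] L') ⧸ Q)) =
      (resMap F A (IsScalarTower.toAlgHom F L L') x (res F A L L' x) rfl).toAlgebra := by
    apply Algebra.algebra_ext
    intro r
    rfl
  have h7 : @Module.finrank ((A ⊗[F] L) ⧸ P) ((A ⊗[F] L') ⧸ Q) _ _
      (resMap F A (IsScalarTower.toAlgHom F L L') x (res F A L L' x) rfl).toAlgebra.toModule =
        Nat.card (MulAction.stabilizer G Q) := by
    rw [← h6]
    exact h5
  exact h7

end Galois

section Bij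

variable {F A L L' : Type*} [Field F] [Field A] [Field L] [Field L'] [Algebra F A] [Algebra F L]
  [Algebra F L'] [Algebra L L'] [IsScalarTower F L L']
  (G : Type*) [Group G] [MulSemiringAction G L'] [SMulCommClass G F L']

theorem bijective_of_finrank_one {k k' : Type*} [Field k] [CommRing k'] [Nontrivial k']
    (f : k →+* k') (h : @Module.finrank k k' _ _ f.toModule = 1) : Function.Bijective f := by
  let _ := f.toAlgebra
  have h1 : Module.finrank k k' = 1 := h
  refine ⟨f.injective, ?_⟩
  intro y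
  obtain ⟨v, hv, hs⟩ := (finrank_eq_one_iff').mp h1
  obtain ⟨c, hc⟩ := hs 1
  obtain ⟨d, hd⟩ := hs y
  have hc0 : c ≠ 0 := by
    rintro rfl
    rw [zero_smul] at hc
    exact zero_ne_one hc
  refine ⟨d * c⁻¹, ?_⟩
  have h2 : v = c⁻¹ • (1 : k') := by rw [← hc, smul_smul, inv_mul_cancel₀ hc0, one_smul]
  rw [← hd, h2, smul_smul, Algebra.smul_def, mul_one]
  rfl

/-- if the stabilizer is trivial then the residue fields agree. -/
theorem resMap_bijective_of_stabilizer_eq_bot [Finite G] [IsGaloisGroup G L L']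
    [Algebra.IsAlgebraic F L'] (x : Pt F A L') (v : Pt F A L) (h : res F A L L' x = v)
    (hs : MulAction.stabilizer G x = ⊥) :
    Function.Bijective (resMap F A (IsScalarTower.toAlgHom F L L') x v h) := by
  have hFL : Algebra.IsAlgebraic F L := Algebra.IsAlgebraic.tower_bot F L L'
  have hv := isMaximal_pt v
  have hx := isMaximal_pt x
  let _ := Ideal.Quotient.field v.asIdeal
  have h1 := finrank_res_eq_card_stabilizer G x v h
  rw [hs] at h1
  apply bijective_of_finrank_one
  rw [Subgroup.card_bot] at h1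
  exact h1

omit [Algebra L L'] [IsScalarTower F L L'] in
theorem resMap_comp {L'' : Type*} [Field L''] [Algebra F L''] (f : L →ₐ[F] L')
    (g : L' →ₐ[F] L'') (x'' : Pt F A L'') (x' : Pt F A L') (x : Pt F A L)
    (h' : ptMap F A g x'' = x') (h : ptMap F A f x' = x) (h'' : ptMap F A (g.comp f) x'' = x) :
    (resMap F A g x'' x' h').comp (resMap F A f x' x h) = resMap F A (g.comp f) x'' x h'' := by
  apply Ideal.Quotient.ringHom_ext
  ext z
  · rfl
  · rfl

end Bij

end P025H544
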