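import Vale.Agent.P025.R2.H544.Fact

/-!
# P025 G-PATCH : passage to infinite algebraic `L`, (2.3), (2.4), (2.5)
-/

open TensorProduct

namespace P025H544

section Fin

variable {F A L : Type*} [Field F] [Field A] [Field L] [Algebra F A] [Algebra F L]

theorem tL_injective {L' : Type*} [Field L'] [Algebra F L'] (f : L →ₐ[F] L') :
    Function.Injective (tL F A f) := by
  have h := Module.Flat.lTensor_preserves_injective_linearMap (M := A) f.toLinearMap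
    f.toRingHom.injective
  intro x y hxy
  apply h
  have key : ∀ z : A ⊗[F] L, LinearMap.lTensor A f.toLinearMap z = tL F A f z := by
    intro z
    induction z with
    | zero => simp
    | add x y hx hy => rw [map_add, map_add, hx, hy]
    | tmul a l => simp
  rw [key, key, hxy]

/-- every element of `A ⊗ L`, `L/F` algebraic, comes from a finite subextension. -/
theorem exists_fin_mem [Algebra.IsAlgebraic F L] (x : A ⊗[F] L) :
    ∃ K : IntermediateField F L, FiniteDimensional F K ∧ ∃ y : A ⊗[F] K, tL F A K.val y = x := by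
  induction x with
  | zero => exact ⟨⊥, inferInstance, 0, map_zero _⟩
  | tmul a l =>
    refine ⟨IntermediateField.adjoin F {l}, ?_, a ⊗ₜ ⟨l, IntermediateField.mem_adjoin_simple_self F l⟩,
      by simp⟩
    exact IntermediateField.adjoin.finiteDimensional (Algebra.IsIntegral.isIntegral l)
  | add x y hx hy =>
    obtain ⟨K1, hK1, x1, rfl⟩ := hx
    obtain ⟨K2, hK2, x2, rfl⟩ := hy
    refine ⟨K1 ⊔ K2, inferInstance,
      tL F A (IntermediateField.inclusion le_sup_left) x1 +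
        tL F A (IntermediateField.inclusion le_sup_right) x2, ?_⟩
    rw [map_add]
    congr 1
    · rw [← AlgHom.comp_apply]
      congr 1
      ext z; simp [tL]
    · rw [← AlgHom.comp_apply]
      congr 1
      ext z; simp [tL]

theorem exists_fin_mem_pair [Algebra.IsAlgebraic F L] (x y : A ⊗[F] L) :
    ∃ K : IntermediateField F L, FiniteDimensional F K ∧
      ∃ x' y' : A ⊗[F] K, tL F A K.val x' = x ∧ tL F A K.val y' = y := by
  obtain ⟨K1, hK1, x1, rfl⟩ := exists_fin_mem x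
  obtain ⟨K2, hK2, x2, rfl⟩ := exists_fin_mem y
  refine ⟨K1 ⊔ K2, inferInstance,
      tL F A (IntermediateField.inclusion le_sup_left) x1,
        tL F A (IntermediateField.inclusion le_sup_right) x2, ?_, ?_⟩
  · rw [← AlgHom.comp_apply]
    congr 1
    ext z; simp [tL]
  · rw [← AlgHom.comp_apply]
    congr 1
    ext z; simp [tL]

end Fin

theorem bc_tL {F A B L L' : Type*} [CommRing F] [CommRing A] [CommRing B] [CommRing L]
    [CommRing L'] [Algebra F A] [Algebra F B] [Algebra A B] [IsScalarTower F A B] [Algebra F L]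
    [Algebra F L'] (f : L →ₐ[F] L') (x : A ⊗[F] L) :
    bc F A B L' (tL F A f x) = tL F B f (bc F A B L x) := by
  induction x with
  | zero => simp
  | add x y hx hy => rw [map_add, map_add, hx, hy, map_add, map_add]
  | tmul a l => simp

section Square

variable {F F1 F2 F0 : Type*} [Field F] [Field F1] [Field F2] [Field F0]
  [Algebra F F1] [Algebra F F2] [Algebra F F0] [Algebra F1 F0] [Algebra F2 F0]
  [IsScalarTower F F1 F0] [IsScalarTower F F2 F0] {L : Type*} [Field L] [Algebra F L]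

/-- (2.2) `L0ˣ = L1ˣ L2ˣ`, `L/F` algebraic (finite or not). -/
theorem Patch.unit_fact (hP : Patch F F1 F2 F0) [Algebra.IsAlgebraic F L] (u : (F0 ⊗[F] L)ˣ) :
    ∃ (a : (F1 ⊗[F] L)ˣ) (b : (F2 ⊗[F] L)ˣ),
      (u : F0 ⊗[F] L) = bc F F1 F0 L a * bc F F2 F0 L b := by
  obtain ⟨K, hK, x, y, hx, hy⟩ := exists_fin_mem_pair (u : F0 ⊗[F] L) ((u⁻¹ : (F0 ⊗[F] L)ˣ) : F0 ⊗[F] L)
  have hxy : x * y = 1 := by
    apply tL_injective (A := F0) K.val
    rw [map_mul, hx, hy, map_one, Units.mul_inv]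
  have hyx : y * x = 1 := by
    apply tL_injective (A := F0) K.val
    rw [map_mul, hx, hy, map_one, Units.inv_mul]
  obtain ⟨a, b, hab⟩ := hP.unit_fact_fin (L := K) ⟨x, y, hxy, hyx⟩
  refine ⟨Units.map (tL F F1 K.val : _ →* _) a, Units.map (tL F F2 K.val : _ →* _) b, ?_⟩
  have h1 : x = bc F F1 F0 K a * bc F F2 F0 K b := hab
  rw [← hx, h1, map_mul, ← bc_tL, ← bc_tL]
  rfl

/-- (2.3) connectedness of the graph: clopen sets with the same preimage in `E(L)`.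
Any field `L`. -/
theorem Patch.connected (hP : Patch F F1 F2 F0) (S : Set (Pt F F1 L)) (T : Set (Pt F F2 L))
    (hS : IsClopen S) (hT : IsClopen T)
    (h : edge F F1 F0 L ⁻¹' S = edge F F2 F0 L ⁻¹' T) :
    (S = ∅ ∧ T = ∅) ∨ (S = Set.univ ∧ T = Set.univ) := by
  obtain ⟨e, he, rfl⟩ := PrimeSpectrum.exists_idempotent_basicOpen_eq_of_isClopen hS
  obtain ⟨f, hf, rfl⟩ := PrimeSpectrum.exists_idempotent_basicOpen_eq_of_isClopen hT
  have h1 : bc F F1 F0 L e = bc F F2 F0 L f := by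
    apply PrimeSpectrum.basicOpen_injOn_isIdempotentElem (R := F0 ⊗[F] L)
      (he.map (bc F F1 F0 L)) (hf.map (bc F F2 F0 L))
    ext x
    exact Set.ext_iff.mp h x
  obtain ⟨z, hz1, hz2⟩ := hP.inter_tensor e f h1
  have hz : z * z = z := by
    apply one_tmul_injective F F1 L
    have := he.eq
    rw [hz1, Algebra.TensorProduct.tmul_mul_tmul, mul_one] at this
    exact this
  rcases eq_or_ne z 0 with h0 | h0
  · left
    rw [hz1, hz2, h0]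
    simp
  · right
    have h1 : z = 1 := by
      have := congrArg (fun t => t * z⁻¹) hz
      simpa [mul_assoc, mul_inv_cancel₀ h0] using this
    rw [hz1, hz2, h1]
    constructor
    · rw [← Algebra.TensorProduct.one_def]; simp
    · rw [← Algebra.TensorProduct.one_def]; simp

theorem nonempty_pt {F A L : Type*} [Field F] [Field A] [Field L] [Algebra F A] [Algebra F L] :
    Nonempty (Pt F A L) := by
  have : Nontrivial (A ⊗[F] L) := inferInstance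
  infer_instance

/-- (2.3) function version, locally constant functions. -/
theorem Patch.connected_fun (hP : Patch F F1 F2 F0) {X : Type*}
    (α : LocallyConstant (Pt F F1 L) X) (β : LocallyConstant (Pt F F2 L) X)
    (h : ∀ e : Pt F F0 L, α (edge F F1 F0 L e) = β (edge F F2 F0 L e)) :
    ∃ c, (∀ v, α v = c) ∧ ∀ d, β d = c := by
  obtain ⟨v0⟩ := nonempty_pt (F := F) (A := F1) (L := L)
  refine ⟨α v0, ?_⟩
  have key := hP.connected (L := L) (α ⁻¹' {α v0}) (β ⁻¹' {α v0})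
    (α.isLocallyConstant.isClopen_fiber _) (β.isLocallyConstant.isClopen_fiber _) (by
      ext e
      simp only [Set.mem_preimage, Set.mem_singleton_iff, h e])
  rcases key with ⟨h1, -⟩ | ⟨h1, h2⟩
  · exfalso
    have : v0 ∈ α ⁻¹' {α v0} := rfl
    rw [h1] at this
    exact this
  · refine ⟨fun v => ?_, fun d => ?_⟩
    · have : v ∈ α ⁻¹' {α v0} := by rw [h1]; trivial
      exact this
    · have : d ∈ β ⁻¹' {α v0} := by rw [h2]; trivial
      exact this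

theorem isArtinian_tensor {F A L : Type*} [Field F] [Field A] [Field L] [Algebra F A]
    [Algebra F L] [FiniteDimensional F L] : IsArtinianRing (A ⊗[F] L) :=
  IsArtinianRing.of_finite A (A ⊗[F] L)

theorem finite_pt {F A L : Type*} [Field F] [Field A] [Field L] [Algebra F A]
    [Algebra F L] [FiniteDimensional F L] : Finite (Pt F A L) := by
  have : IsArtinianRing (A ⊗[F] L) := isArtinian_tensor
  infer_instance

theorem discrete_pt {F A L : Type*} [Field F] [Field A] [Field L] [Algebra F A]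
    [Algebra F L] [FiniteDimensional F L] : DiscreteTopology (Pt F A L) := by
  have : IsArtinianRing (A ⊗[F] L) := isArtinian_tensor
  infer_instance

/-- (2.3) function version for finite `L/F` (all sets discrete). -/
theorem Patch.connected_fin (hP : Patch F F1 F2 F0) [FiniteDimensional F L] {X : Type*}
    (α : Pt F F1 L → X) (β : Pt F F2 L → X)
    (h : ∀ e : Pt F F0 L, α (edge F F1 F0 L e) = β (edge F F2 F0 L e)) :
    ∃ c, (∀ v, α v = c) ∧ ∀ d, β d = c := by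
  have h1 : DiscreteTopology (Pt F F1 L) := discrete_pt
  have h2 : DiscreteTopology (Pt F F2 L) := discrete_pt
  exact hP.connected_fun ⟨α, IsLocallyConstant.of_discrete α⟩ ⟨β, IsLocallyConstant.of_discrete β⟩ h

theorem one_tmul_mul {A : Type*} [Field A] [Algebra F A] (x y : L) :
    (1 : A) ⊗ₜ[F] (x * y) = ((1 : A) ⊗ₜ[F] x) * ((1 : A) ⊗ₜ[F] y) := by
  rw [Algebra.TensorProduct.tmul_mul_tmul, mul_one]

theorem one_tmul_pow {A : Type*} [Field A] [Algebra F A] (x : L) (n : ℕ) :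
    (1 : A) ⊗ₜ[F] (x ^ n) = ((1 : A) ⊗ₜ[F] x) ^ n := by
  rw [Algebra.TensorProduct.tmul_pow, one_pow]

/-- (2.4) Kummer gluing. -/
theorem Patch.kummer_glue (hP : Patch F F1 F2 F0) [Algebra.IsAlgebraic F L] (n : ℕ)
    (a : (F1 ⊗[F] L)ˣ) (b : (F2 ⊗[F] L)ˣ) (w : (F0 ⊗[F] L)ˣ)
    (h : bc F F1 F0 L a = bc F F2 F0 L b * (w : F0 ⊗[F] L) ^ n) :
    ∃ x : L, x ≠ 0 ∧ (∃ s : (F1 ⊗[F] L)ˣ, (1 : F1) ⊗ₜ[F] x = (a : F1 ⊗[F] L) * s ^ n) ∧
      (∃ t : (F2 ⊗[F] L)ˣ, (1 : F2) ⊗ₜ[F] x = (b : F2 ⊗[F] L) * t ^ n) := by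
  obtain ⟨s, t, hst⟩ := hP.unit_fact w
  have h1 : bc F F1 F0 L ((a : F1 ⊗[F] L) * ((s⁻¹ : (F1 ⊗[F] L)ˣ) : F1 ⊗[F] L) ^ n) =
      bc F F2 F0 L ((b : F2 ⊗[F] L) * (t : F2 ⊗[F] L) ^ n) := by
    rw [map_mul, map_mul, map_pow, map_pow, h, hst]
    have h2 : bc F F1 F0 L s * bc F F1 F0 L ((s⁻¹ : (F1 ⊗[F] L)ˣ) : F1 ⊗[F] L) = 1 := by
      rw [← map_mul, Units.mul_inv, map_one]
    calc _ = bc F F2 F0 L b * (bc F F2 F0 L t) ^ n *
        (bc F F1 F0 L s * bc F F1 F0 L ((s⁻¹ : (F1 ⊗[F] L)ˣ) : F1 ⊗[F] L)) ^ n := by ring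
      _ = _ := by rw [h2, one_pow, mul_one]
  obtain ⟨x, hx1, hx2⟩ := hP.inter_tensor _ _ h1
  refine ⟨x, ?_, ⟨s⁻¹, hx1.symm⟩, ⟨t, hx2.symm⟩⟩
  rintro rfl
  rw [tmul_zero] at hx1
  have h3 : IsUnit ((a : F1 ⊗[F] L) * ((s⁻¹ : (F1 ⊗[F] L)ˣ) : F1 ⊗[F] L) ^ n) :=
    a.isUnit.mul (Units.isUnit _ |>.pow n)
  rw [hx1] at h3
  exact not_isUnit_zero h3

/-- (2.5) `x_γ` for `γ ∈ μ_n(L0)`. -/
def IsXgamma (n : ℕ) (γ : (F0 ⊗[F] L)ˣ) (x : L) (a : (F1 ⊗[F] L)ˣ) (b : (F2 ⊗[F] L)ˣ) : Prop :=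
  bc F F1 F0 L a = (γ : F0 ⊗[F] L) * bc F F2 F0 L b ∧
    (1 : F1) ⊗ₜ[F] x = (a : F1 ⊗[F] L) ^ n ∧ (1 : F2) ⊗ₜ[F] x = (b : F2 ⊗[F] L) ^ n

theorem Patch.exists_xgamma (hP : Patch F F1 F2 F0) [Algebra.IsAlgebraic F L] (n : ℕ)
    (γ : (F0 ⊗[F] L)ˣ) (hγ : γ ^ n = 1) :
    ∃ (x : L) (a : (F1 ⊗[F] L)ˣ) (b : (F2 ⊗[F] L)ˣ), x ≠ 0 ∧ IsXgamma n γ x a b := by
  obtain ⟨a, b, hab⟩ := hP.unit_fact γ
  have hγ' : (γ : F0 ⊗[F] L) ^ n = 1 := by
    rw [← Units.val_pow_eq_pow_val, hγ, Units.val_one]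
  have h0 : bc F F1 F0 L a = (γ : F0 ⊗[F] L) * bc F F2 F0 L ((b⁻¹ : (F2 ⊗[F] L)ˣ) : F2 ⊗[F] L) := by
    rw [hab, mul_assoc, ← map_mul, Units.mul_inv, map_one, mul_one]
  have h1 : bc F F1 F0 L ((a : F1 ⊗[F] L) ^ n) =
      bc F F2 F0 L (((b⁻¹ : (F2 ⊗[F] L)ˣ) : F2 ⊗[F] L) ^ n) := by
    rw [map_pow, map_pow, h0, mul_pow, hγ', one_mul]
  obtain ⟨x, hx1, hx2⟩ := hP.inter_tensor _ _ h1
  refine ⟨x, a, b⁻¹, ?_, h0, hx1.symm, hx2.symm⟩
  rintro rfl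
  rw [tmul_zero] at hx1
  have h3 : IsUnit ((a : F1 ⊗[F] L) ^ n) := a.isUnit.pow n
  rw [hx1] at h3
  exact not_isUnit_zero h3

theorem isUnit_one_tmul {A : Type*} [Field A] [Algebra F A] {x : L} (hx : x ≠ 0) :
    IsUnit ((1 : A) ⊗ₜ[F] x) := by
  refine IsUnit.of_mul_eq_one ((1 : A) ⊗ₜ[F] x⁻¹) ?_
  rw [← one_tmul_mul, mul_inv_cancel₀ hx, ← Algebra.TensorProduct.one_def]

theorem Patch.xgamma_isPow_iff (hP : Patch F F1 F2 F0) (n : ℕ) (hn : n ≠ 0)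
    (γ : (F0 ⊗[F] L)ˣ) (x : L) (a : (F1 ⊗[F] L)ˣ) (b : (F2 ⊗[F] L)ˣ)
    (h : IsXgamma n γ x a b) :
    (∃ y : L, y ^ n = x) ↔ ∃ (z1 : (F1 ⊗[F] L)ˣ) (z2 : (F2 ⊗[F] L)ˣ), z1 ^ n = 1 ∧ z2 ^ n = 1 ∧
      (γ : F0 ⊗[F] L) = bc F F1 F0 L z1 * bc F F2 F0 L z2 := by
  obtain ⟨h0, h1, h2⟩ := h
  have hx0 : x ≠ 0 := by
    rintro rfl
    rw [tmul_zero] at h1
    have h3 : IsUnit ((a : F1 ⊗[F] L) ^ n) := a.isUnit.pow n
    rw [← h1] at h3
    exact not_isUnit_zero h3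
  constructor
  · rintro ⟨y, rfl⟩
    have hy0 : y ≠ 0 := by
      rintro rfl
      exact hx0 (zero_pow hn)
    obtain ⟨y1, hy1⟩ := isUnit_one_tmul (F := F) (A := F1) hy0
    obtain ⟨y2, hy2⟩ := isUnit_one_tmul (F := F) (A := F2) hy0
    have hy12 : bc F F1 F0 L y1 = bc F F2 F0 L y2 := by
      rw [hy1, hy2, bc_tmul, bc_tmul, map_one, map_one]
    refine ⟨a * y1⁻¹, y2 * b⁻¹, ?_, ?_, ?_⟩
    · rw [mul_pow, inv_pow, mul_inv_eq_one]
      ext
      rw [Units.val_pow_eq_pow_val, Units.val_pow_eq_pow_val, hy1, ← one_tmul_pow, h1]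
    · rw [mul_pow, inv_pow, mul_inv_eq_one]
      ext
      rw [Units.val_pow_eq_pow_val, Units.val_pow_eq_pow_val, hy2, ← one_tmul_pow, h2]
    · rw [Units.val_mul, Units.val_mul, map_mul, map_mul, h0]
      have h3 : bc F F1 F0 L ((y1⁻¹ : (F1 ⊗[F] L)ˣ) : F1 ⊗[F] L) * bc F F2 F0 L y2 = 1 := by
        rw [← hy12, ← map_mul, Units.inv_mul, map_one]
      have h4 : bc F F2 F0 L b * bc F F2 F0 L ((b⁻¹ : (F2 ⊗[F] L)ˣ) : F2 ⊗[F] L) = 1 := by
        rw [← map_mul, Units.mul_inv, map_one]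
      calc (γ : F0 ⊗[F] L) = γ * (bc F F1 F0 L ((y1⁻¹ : (F1 ⊗[F] L)ˣ) : F1 ⊗[F] L) *
            bc F F2 F0 L y2) * (bc F F2 F0 L b *
              bc F F2 F0 L ((b⁻¹ : (F2 ⊗[F] L)ˣ) : F2 ⊗[F] L)) := by rw [h3, h4, mul_one, mul_one]
        _ = _ := by ring
  · rintro ⟨z1, z2, hz1, hz2, hγ⟩
    have h3 : bc F F1 F0 L ((z1⁻¹ : (F1 ⊗[F] L)ˣ) * (a : F1 ⊗[F] L)) =
        bc F F2 F0 L (z2 * (b : F2 ⊗[F] L)) := by
      rw [map_mul, map_mul, h0, hγ]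
      have h5 : bc F F1 F0 L ((z1⁻¹ : (F1 ⊗[F] L)ˣ) : F1 ⊗[F] L) * bc F F1 F0 L z1 = 1 := by
        rw [← map_mul, Units.inv_mul, map_one]
      calc _ = (bc F F1 F0 L ((z1⁻¹ : (F1 ⊗[F] L)ˣ) : F1 ⊗[F] L) * bc F F1 F0 L z1) *
          (bc F F2 F0 L z2 * bc F F2 F0 L b) := by ring
        _ = _ := by rw [h5, one_mul]
    obtain ⟨y, hy1, hy2⟩ := hP.inter_tensor _ _ h3
    refine ⟨y, ?_⟩
    apply one_tmul_injective F F1 L
    change (1 : F1) ⊗ₜ[F] (y ^ n) = (1 : F1) ⊗ₜ[F] x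
    rw [one_tmul_pow, ← hy1, mul_pow, h1, ← Units.val_pow_eq_pow_val, inv_pow, hz1, inv_one,
      Units.val_one, one_mul]

/-- every `x` that is an `n`-th power in `L1` and `L2` is an `x_γ`. -/
theorem xgamma_of_isPow (n : ℕ) (x : L) (hx : x ≠ 0) (hn : n ≠ 0)
    (h1 : ∃ a : F1 ⊗[F] L, a ^ n = (1 : F1) ⊗ₜ[F] x)
    (h2 : ∃ b : F2 ⊗[F] L, b ^ n = (1 : F2) ⊗ₜ[F] x) :
    ∃ (γ : (F0 ⊗[F] L)ˣ) (a : (F1 ⊗[F] L)ˣ) (b : (F2 ⊗[F] L)ˣ), γ ^ n = 1 ∧
      IsXgamma n γ x a b := by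
  obtain ⟨a, ha⟩ := h1
  obtain ⟨b, hb⟩ := h2
  have hau : IsUnit a := (isUnit_pow_iff hn).mp (by rw [ha]; exact isUnit_one_tmul hx)
  have hbu : IsUnit b := (isUnit_pow_iff hn).mp (by rw [hb]; exact isUnit_one_tmul hx)
  obtain ⟨a, rfl⟩ := hau
  obtain ⟨b, rfl⟩ := hbu
  have key : (Units.map (bc F F1 F0 L : F1 ⊗[F] L →* F0 ⊗[F] L) a) ^ n =
      (Units.map (bc F F2 F0 L : F2 ⊗[F] L →* F0 ⊗[F] L) b) ^ n := by
    ext
    rw [Units.val_pow_eq_pow_val, Units.val_pow_eq_pow_val]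
    change (bc F F1 F0 L a) ^ n = (bc F F2 F0 L b) ^ n
    rw [← map_pow, ← map_pow, ha, hb, bc_tmul, bc_tmul, map_one, map_one]
  refine ⟨(Units.map (bc F F1 F0 L : F1 ⊗[F] L →* F0 ⊗[F] L) a) *
    (Units.map (bc F F2 F0 L : F2 ⊗[F] L →* F0 ⊗[F] L) b)⁻¹, a, b,
    ?_, ?_, ha.symm, hb.symm⟩
  · rw [mul_pow, key, inv_pow, mul_inv_cancel]
  · have : bc F F1 F0 L a = ((Units.map (bc F F1 F0 L : F1 ⊗[F] L →* F0 ⊗[F] L) a :
        (F0 ⊗[F] L)ˣ) : F0 ⊗[F] L) := rfl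
    have h2 : bc F F2 F0 L b = ((Units.map (bc F F2 F0 L : F2 ⊗[F] L →* F0 ⊗[F] L) b :
        (F0 ⊗[F] L)ˣ) : F0 ⊗[F] L) := rfl
    rw [this, h2, ← Units.val_mul, inv_mul_cancel_right]

end Square

end P025H544
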